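import Vale.Agent.P097.H128.NZ.Defs2
import Vale.Agent.P097.H407.Hol
import Vale.Agent.P097.H490.Par

/-! # P097 / program NZ: the real start (NZ-C).  Owner: helper247. -/

set_option linter.all false

open Complex Metric Filter Topology Set

namespace Vale.Agent.P097.H247

open Vale.Agent.P097.NZ Vale.Agent.P097.TA Vale.Agent.P097.H202 Vale.Agent.P097.H402.Rat

/-! ## 1. Taylor coefficients in the second variable -/

/-- partial derivative in the second variable -/
theorem an_dsnd {f : ℂ × ℂ → ℂ} {p : ℂ × ℂ} (hf : AnalyticAt ℂ f p) :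
    AnalyticAt ℂ (fun q : ℂ × ℂ => deriv (fun t => f (q.1, t)) q.2) p := by
  have h1 : AnalyticAt ℂ (fun q => (ContinuousLinearMap.apply ℂ ℂ ((0 : ℂ), (1 : ℂ)))
      (fderiv ℂ f q)) p :=
    ((ContinuousLinearMap.apply ℂ ℂ ((0 : ℂ), (1 : ℂ))).analyticAt _).comp hf.fderiv
  refine h1.congr ?_
  filter_upwards [hf.eventually_analyticAt] with q hq
  have h2 : HasDerivAt (fun t : ℂ => ((q.1, t) : ℂ × ℂ)) (0, 1) q.2 :=
    (hasDerivAt_const q.2 q.1).prodMk (hasDerivAt_id q.2)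
  have h3 : HasFDerivAt f (fderiv ℂ f q) (q.1, q.2) := hq.differentiableAt.hasFDerivAt
  exact (h3.comp_hasDerivAt q.2 h2).deriv.symm

theorem an_iter {f : ℂ × ℂ → ℂ} {p : ℂ × ℂ} (hf : AnalyticAt ℂ f p) (k : ℕ) :
    AnalyticAt ℂ (fun q : ℂ × ℂ => iteratedDeriv k (fun t => f (q.1, t)) q.2) p := by
  induction k with
  | zero => simpa using hf
  | succ k ih =>
    have := an_dsnd ih
    simpa [iteratedDeriv_succ] using this

theorem tc_an {f : ℂ × ℂ → ℂ} {z : ℂ} (hf : AnalyticAt ℂ f (z, 0)) (k : ℕ) :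
    AnalyticAt ℂ (tc f k) z := by
  have h2 : AnalyticAt ℂ (fun z : ℂ => ((z, 0) : ℂ × ℂ)) z := analyticAt_id.prod analyticAt_const
  have h3 : AnalyticAt ℂ (fun z : ℂ => iteratedDeriv k (fun t => f (z, t)) 0) z :=
    AnalyticAt.comp' (f := fun z : ℂ => ((z, 0) : ℂ × ℂ)) (x := z)
      (g := fun q : ℂ × ℂ => iteratedDeriv k (fun t => f (q.1, t)) q.2) (an_iter hf k) h2
  exact h3.div_const

theorem ev_slice {f g : ℂ × ℂ → ℂ} {z : ℂ} (h : f =ᶠ[𝓝 (z, 0)] g) :
    (fun δ : ℂ => f (z, δ)) =ᶠ[𝓝 0] fun δ => g (z, δ) :=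
  (Continuous.tendsto' (f := fun δ : ℂ => ((z, δ) : ℂ × ℂ)) (by fun_prop) 0 (z, 0) rfl).eventually h

theorem tc_congr {f g : ℂ × ℂ → ℂ} {z : ℂ} (h : f =ᶠ[𝓝 (z, 0)] g) (k : ℕ) :
    tc f k z = tc g k z := by
  unfold tc
  rw [(ev_slice h).iteratedDeriv_eq]

theorem an_slice {f : ℂ × ℂ → ℂ} {z : ℂ} (hf : AnalyticAt ℂ f (z, 0)) :
    AnalyticAt ℂ (fun δ : ℂ => f (z, δ)) 0 := by
  have h2 : AnalyticAt ℂ (fun δ : ℂ => ((z, δ) : ℂ × ℂ)) 0 := analyticAt_const.prod analyticAt_id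
  exact hf.comp' h2

/-- a function `O(δ ^ (n + 1))` has vanishing derivatives up to order `n` -/
theorem iter_zero {w : ℂ → ℂ} (hw : AnalyticAt ℂ w 0) {C : ℝ} {n : ℕ}
    (hb : ∀ᶠ δ in 𝓝 (0 : ℂ), ‖w δ‖ ≤ C * ‖δ‖ ^ (n + 1)) {j : ℕ} (hj : j ≤ n) :
    iteratedDeriv j w 0 = 0 := by
  have key : ((n + 1 : ℕ) : ℕ∞) ≤ analyticOrderAt w 0 := by
    by_contra hlt
    push Not at hlt
    have hne : analyticOrderAt w 0 ≠ ⊤ := fun h => by simp [h] at hlt
    obtain ⟨m, hm⟩ := ENat.ne_top_iff_exists.1 hne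
    rw [← hm] at hlt
    have hmn : m < n + 1 := by exact_mod_cast hlt
    obtain ⟨g, hg, hg0, hgw⟩ := (hw.analyticOrderAt_eq_natCast).1 hm.symm
    have h1 : ∀ᶠ δ in 𝓝[≠] (0 : ℂ), ‖g δ‖ ≤ C * ‖δ‖ ^ (n + 1 - m) := by
      filter_upwards [nhdsWithin_le_nhds hb, nhdsWithin_le_nhds hgw, self_mem_nhdsWithin]
        with δ h1 h2 h3
      have h3' : 0 < ‖δ‖ := norm_pos_iff.2 h3
      rw [h2, sub_zero, smul_eq_mul, norm_mul, norm_pow] at h1
      have h4 : ‖δ‖ ^ m * ‖g δ‖ ≤ ‖δ‖ ^ m * (C * ‖δ‖ ^ (n + 1 - m)) := by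
        calc _ ≤ C * ‖δ‖ ^ (n + 1) := h1
          _ = C * (‖δ‖ ^ m * ‖δ‖ ^ (n + 1 - m)) := by rw [← pow_add]; congr 2; omega
          _ = _ := by ring
      exact le_of_mul_le_mul_left h4 (by positivity)
    have h5 : Tendsto (fun δ : ℂ => C * ‖δ‖ ^ (n + 1 - m)) (𝓝[≠] (0 : ℂ)) (𝓝 0) := by
      apply tendsto_nhdsWithin_of_tendsto_nhds
      have : Continuous fun δ : ℂ => C * ‖δ‖ ^ (n + 1 - m) := by fun_prop
      refine this.tendsto' 0 0 ?_
      simp [show n + 1 - m ≠ 0 by omega]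
    have h6 : Tendsto (fun δ => ‖g δ‖) (𝓝[≠] (0 : ℂ)) (𝓝 ‖g 0‖) :=
      tendsto_nhdsWithin_of_tendsto_nhds hg.continuousAt.norm
    have h7 : ‖g 0‖ ≤ 0 := le_of_tendsto_of_tendsto h6 h5 h1
    exact hg0 (norm_le_zero_iff.1 h7)
  exact (natCast_le_analyticOrderAt_iff_iteratedDeriv_eq_zero hw).1 key j (by omega)

/-! ## 2. The root -/

theorem snc_mul (u : ℂ) : u * snc u = Complex.sin u := by
  have := sub_smul_dslope Complex.sin 0 u
  simpa [snc] using this

theorem snc_zero : snc 0 = 1 := by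
  simp [snc]

theorem snc_diff : Differentiable ℂ snc := by
  have h : DifferentiableOn ℂ Complex.sin univ := Complex.differentiable_sin.differentiableOn
  have := (Complex.differentiableOn_dslope (s := univ) (c := 0) univ_mem).2 h
  exact fun z => (this z (mem_univ z)).differentiableAt univ_mem

theorem kint_chord (R : ℂ → ℂ) (φ y v : ℂ) (hy : y ≠ 0) (h : Chord R φ (y * v) y) :
    Kint (kr R (φ, y)) v = 0 := by
  have h1 : y * Kint (kr R (φ, y)) v = v * ∫ s in (0 : ℝ)..1,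
      R (φ + s * (y * v)) * Complex.sin (s * (y * v) - y) := by
    unfold Kint
    rw [← intervalIntegral.integral_const_mul, ← intervalIntegral.integral_const_mul]
    congr 1
    ext s
    simp only [kr]
    rw [show (s : ℂ) * (y * v) - y = y * (s * v - 1) by ring, ← snc_mul,
      show φ + y * (↑s * v) = φ + s * (y * v) by ring]
    ring
  rw [Chord] at h
  rw [h, mul_zero] at h1
  exact (mul_eq_zero.1 h1).resolve_left hy

/-- the slope at `0` of the chord map is `2` -/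
theorem slope_two {R : ℂ → ℂ} {x : ℂ} {g : ℂ → ℂ} (hR : AnalyticAt ℂ R x) (hR0 : R x ≠ 0)
    (hg : AnalyticAt ℂ g 0) (hg0 : g 0 = 0) (hc : ∀ᶠ y in 𝓝 (0 : ℂ), Chord R x (g y) y) :
    deriv g 0 = 2 := by
  obtain ⟨ρ, hρ, hRρ⟩ := hR.exists_ball_analyticOnNhd
  obtain ⟨r1, hr1, hg1⟩ := hg.exists_ball_analyticOnNhd
  have hgc : ∀ᶠ y in 𝓝 (0 : ℂ), ‖g y‖ < ρ := by
    have : Tendsto (fun y => ‖g y‖) (𝓝 0) (𝓝 ‖g 0‖) := hg.continuousAt.norm
    rw [hg0, norm_zero] at this
    exact this.eventually (gt_mem_nhds hρ)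
  obtain ⟨r2, hr2, hg2⟩ := Metric.eventually_nhds_iff_ball.1 hgc
  set r := min r1 r2 with hr
  have hr0 : 0 < r := lt_min hr1 hr2
  have hgd : DifferentiableOn ℂ g (ball 0 r) := fun y hy =>
    (hg1 y (ball_subset_ball (min_le_left _ _) hy)).differentiableAt.differentiableWithinAt
  have hgρ : ∀ y ∈ ball (0 : ℂ) r, ‖g y‖ < ρ := fun y hy =>
    hg2 y (ball_subset_ball (min_le_right _ _) hy)
  set d := dslope g 0 with hd
  have hdd : DifferentiableOn ℂ d (ball 0 r) :=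
    (Complex.differentiableOn_dslope (ball_mem_nhds 0 hr0)).2 hgd
  have hgd' : ∀ y, y * d y = g y := by
    intro y
    have := sub_smul_dslope g 0 y
    simpa [hg0] using this
  have hRd : DifferentiableOn ℂ R (ball x ρ) := fun y hy =>
    (hRρ y hy).differentiableAt.differentiableWithinAt
  have hmaps : ∀ y ∈ ball (0 : ℂ) r, ∀ s ∈ Icc (0 : ℝ) 1, x + (s : ℂ) * g y ∈ ball x ρ := by
    intro y hy s hs
    rw [mem_ball, dist_eq_norm, add_sub_cancel_left, norm_mul, Complex.norm_real,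
      Real.norm_of_nonneg hs.1]
    calc s * ‖g y‖ ≤ 1 * ‖g y‖ := by gcongr; exact hs.2
      _ < ρ := by rw [one_mul]; exact hgρ y hy
  set G : ℂ → ℂ := fun y => ∫ s in (0 : ℝ)..1,
    R (x + s * g y) * (snc (s * g y - y) * (s * d y - 1)) with hG
  have hGd : DifferentiableOn ℂ G (ball 0 r) := by
    refine H490.diffOn_integral isOpen_ball zero_le_one
      (Φ := fun y s => R (x + s * g y) * (snc (s * g y - y) * (s * d y - 1))) ?_ ?_
    · have c1 : ContinuousOn (fun p : ℂ × ℝ => g p.1) (ball (0 : ℂ) r ×ˢ Icc 0 1) :=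
        hgd.continuousOn.comp continuousOn_fst fun p hp => hp.1
      have c2 : ContinuousOn (fun p : ℂ × ℝ => d p.1) (ball (0 : ℂ) r ×ˢ Icc 0 1) :=
        hdd.continuousOn.comp continuousOn_fst fun p hp => hp.1
      have c3 : ContinuousOn (fun p : ℂ × ℝ => (p.2 : ℂ)) (ball (0 : ℂ) r ×ˢ Icc 0 1) :=
        (Continuous.continuousOn (by fun_prop))
      have c4 : ContinuousOn (fun p : ℂ × ℝ => p.1) (ball (0 : ℂ) r ×ˢ Icc 0 1) :=
        (Continuous.continuousOn (by fun_prop))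
      refine ContinuousOn.mul ?_ (ContinuousOn.mul ?_ ?_)
      · exact hRd.continuousOn.comp (continuousOn_const.add (c3.mul c1))
          fun p hp => hmaps p.1 hp.1 p.2 hp.2
      · exact snc_diff.continuous.comp_continuousOn ((c3.mul c1).sub c4)
      · exact (c3.mul c2).sub continuousOn_const
    · intro s hs
      refine DifferentiableOn.mul ?_ (DifferentiableOn.mul ?_ ?_)
      · exact hRd.comp ((differentiableOn_const _).add ((differentiableOn_const _).mul hgd))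
          fun y hy => hmaps y hy s hs
      · exact snc_diff.comp_differentiableOn (((differentiableOn_const _).mul hgd).sub
          differentiableOn_id)
      · exact ((differentiableOn_const _).mul hdd).sub (differentiableOn_const _)
  have hG0 : ∀ᶠ y in 𝓝[≠] (0 : ℂ), G y = 0 := by
    filter_upwards [nhdsWithin_le_nhds hc, self_mem_nhdsWithin] with y hy hy0
    have h1 : y * G y = ∫ s in (0 : ℝ)..1, R (x + s * g y) * Complex.sin (s * g y - y) := by
      rw [hG]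
      simp only
      rw [← intervalIntegral.integral_const_mul]
      congr 1
      ext s
      rw [← snc_mul (s * g y - y)]
      rw [show (s : ℂ) * g y - y = y * (s * d y - 1) by rw [← hgd' y]; ring]
      ring
    rw [Chord] at hy
    rw [hy] at h1
    exact (mul_eq_zero.1 h1).resolve_left hy0
  have hGc : ContinuousAt G 0 := (hGd.differentiableAt (ball_mem_nhds 0 hr0)).continuousAt
  have hG00 : G 0 = 0 := by
    have t1 : Tendsto G (𝓝[≠] (0 : ℂ)) (𝓝 (G 0)) := tendsto_nhdsWithin_of_tendsto_nhds hGc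
    have t2 : Tendsto G (𝓝[≠] (0 : ℂ)) (𝓝 0) :=
      (tendsto_congr' hG0).2 tendsto_const_nhds
    exact tendsto_nhds_unique t1 t2
  have hd0 : d 0 = deriv g 0 := by rw [hd, dslope_same]
  have hcalc : G 0 = R x * (d 0 / 2 - 1) := by
    rw [hG]
    simp only [hg0, mul_zero, add_zero, sub_zero, snc_zero, one_mul]
    rw [intervalIntegral.integral_const_mul]
    congr 1
    rw [intervalIntegral.integral_sub, intervalIntegral.integral_mul_const]
    · simp only [intervalIntegral.integral_const, sub_zero, one_smul]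
      rw [show (∫ s in (0 : ℝ)..1, (s : ℂ)) = ((∫ s in (0 : ℝ)..1, s : ℝ) : ℂ) from
        intervalIntegral.integral_ofReal]
      rw [integral_id]
      push_cast
      ring
    · have h : Continuous fun s : ℝ => (s : ℂ) * d 0 := by fun_prop
      exact h.intervalIntegrable _ _
    · have h : Continuous fun s : ℝ => (1 : ℂ) := by fun_prop
      exact h.intervalIntegrable _ _
  rw [hcalc] at hG00
  have h2 := (mul_eq_zero.1 hG00).resolve_left hR0
  rw [← hd0]
  linear_combination 2 * h2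

/-! ## 3. The chord map of a pencil Hamiltonian -/

section

variable {R : ℂ → ℂ} {δ : ℝ} {E ξ X : ℂ → ℂ → ℂ}

theorem isOpen_BX (δ : ℝ) : IsOpen (BX δ) := by
  have h1 : Continuous fun p : ℂ × ℂ => |p.1.im| := by fun_prop
  have h2 : Continuous fun p : ℂ × ℂ => ‖p.2‖ := by fun_prop
  exact (isOpen_lt h1 continuous_const).inter (isOpen_lt h2 continuous_const)

theorem isOpen_Str' (δ : ℝ) : IsOpen (Str δ) := by
  have h1 : Continuous fun p : ℂ => |p.im| := by fun_prop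
  exact isOpen_lt h1 continuous_const

/-- the chord map in terms of `X` -/
def S0 (X : ℂ → ℂ → ℂ) (p : ℂ × ℂ) : ℂ × ℂ := (p.1 + X p.1 p.2, X p.1 p.2 - p.2)

/-- near a real boundary point the chord map of the table is `S0` -/
theorem TT_eq (hA : RootA) (P : Pen R δ E ξ X) (x : ℝ) :
    ∀ᶠ p in 𝓝 ((x : ℂ), (0 : ℂ)), TT R p = S0 X p := by
  have hxS : (x : ℂ) ∈ Str δ := by simp [Str, P.hδ]
  have hxB : ((x : ℂ), (0 : ℂ)) ∈ BX δ := by simp [BX, P.hδ]
  have hR : AnalyticAt ℂ R x := P.dR.analyticAt ((isOpen_Str' δ).mem_nhds hxS)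
  have hX : AnalyticAt ℂ (fun p : ℂ × ℂ => X p.1 p.2) ((x : ℂ), (0 : ℂ)) :=
    Hol.analyticAt_of_differentiableOn (isOpen_BX δ) P.jX hxB
  have hR0 := P.R0 x hxS
  obtain ⟨ε, hε, hXc⟩ := P.Xc
  -- the slope
  have hsl : deriv (fun y => X x y) 0 = 2 := by
    refine slope_two hR hR0 (an_slice (f := fun p : ℂ × ℂ => X p.1 p.2) hX) ?_ ?_
    · exact P.X0 x (by simpa using P.hδ)
    · filter_upwards [ball_mem_nhds (0 : ℂ) hε] with y hy
      exact hXc x y (by simpa using hε) (by simpa using hy)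
  -- uniform slope
  have hD : AnalyticAt ℂ (fun q : ℂ × ℂ => deriv (fun t => X q.1 t) q.2) ((x : ℂ), (0 : ℂ)) :=
    an_dsnd hX
  have hD2 : ∀ᶠ q in 𝓝 ((x : ℂ), (0 : ℂ)), ‖deriv (fun t => X q.1 t) q.2 - 2‖ < 1 / 8 := by
    have h1 : Tendsto (fun q : ℂ × ℂ => ‖deriv (fun t => X q.1 t) q.2 - 2‖)
        (𝓝 ((x : ℂ), (0 : ℂ))) (𝓝 ‖deriv (fun t => X x t) 0 - 2‖) :=
      (hD.continuousAt.sub continuousAt_const).norm
    rw [hsl, sub_self, norm_zero] at h1
    exact h1.eventually (gt_mem_nhds (by norm_num))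
  have hBX : ∀ᶠ q in 𝓝 ((x : ℂ), (0 : ℂ)), q ∈ BX δ := (isOpen_BX δ).mem_nhds hxB
  obtain ⟨r, hr, hball⟩ := Metric.eventually_nhds_iff_ball.1 (hD2.and hBX)
  have hbox : ∀ φ y : ℂ, ‖φ - x‖ < r → ‖y‖ < r → (φ, y) ∈ ball ((x : ℂ), (0 : ℂ)) r := by
    intro φ y h1 h2
    rw [mem_ball, Prod.dist_eq, max_lt_iff]
    exact ⟨by simpa [dist_eq_norm] using h1, by simpa [dist_eq_norm] using h2⟩
  have hlin : ∀ φ y : ℂ, ‖φ - x‖ < r → ‖y‖ < r → ‖X φ y - 2 * y‖ ≤ 1 / 8 * ‖y‖ := by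
    intro φ y h1 h2
    have hder : ∀ t ∈ ball (0 : ℂ) r,
        HasDerivWithinAt (fun t => X φ t - 2 * t) (deriv (fun t => X φ t) t - 2) (ball 0 r) t := by
      intro t ht
      have ht' : ‖t‖ < r := by simpa using ht
      have h3 := (hball (φ, t) (hbox φ t h1 ht')).2
      have h4 : DifferentiableAt ℂ (fun t => X φ t) t := by
        have := (P.jX.differentiableAt ((isOpen_BX δ).mem_nhds h3))
        exact this.comp t (f := fun t : ℂ => ((φ, t) : ℂ × ℂ)) (by fun_prop)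
      have h5 : HasDerivAt (fun t : ℂ => 2 * t) 2 t := by
        simpa using (hasDerivAt_id t).const_mul (2 : ℂ)
      exact (h4.hasDerivAt.sub h5).hasDerivWithinAt
    have hbd : ∀ t ∈ ball (0 : ℂ) r, ‖deriv (fun t => X φ t) t - 2‖ ≤ 1 / 8 := by
      intro t ht
      exact (hball (φ, t) (hbox φ t h1 (by simpa using ht))).1.le
    have := (convex_ball (0 : ℂ) r).norm_image_sub_le_of_norm_hasDerivWithin_le hder hbd
      (mem_ball_self hr) (show y ∈ ball (0 : ℂ) r by simpa using h2)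
    have h6 : X φ 0 = 0 := by
      refine P.X0 φ ?_
      exact (hball (φ, 0) (hbox φ 0 h1 (by simpa using hr))).2.1
    simpa [h6] using this
  -- the root
  obtain ⟨hra, hr2, hrp⟩ := hA (kr R) ((x : ℂ), (0 : ℂ)) (R x) hR0
    (by
      intro v hv
      have e01 : AnalyticAt ℂ (fun q : (ℂ × ℂ) × ℂ => q.1.1) (((x : ℂ), (0 : ℂ)), v) :=
        analyticAt_fst.comp' analyticAt_fst
      have e02 : AnalyticAt ℂ (fun q : (ℂ × ℂ) × ℂ => q.1.2) (((x : ℂ), (0 : ℂ)), v) :=
        analyticAt_snd.comp' analyticAt_fst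
      have e03 : AnalyticAt ℂ (fun q : (ℂ × ℂ) × ℂ => q.2) (((x : ℂ), (0 : ℂ)), v) :=
        analyticAt_snd
      have e1 : AnalyticAt ℂ (fun q : (ℂ × ℂ) × ℂ => q.1.1 + q.1.2 * q.2)
          (((x : ℂ), (0 : ℂ)), v) := e01.fun_add (e02.fun_mul e03)
      have e2 : AnalyticAt ℂ (fun q : (ℂ × ℂ) × ℂ => q.1.2 * (q.2 - 1))
          (((x : ℂ), (0 : ℂ)), v) := e02.fun_mul (e03.fun_sub analyticAt_const)
      have e3 : AnalyticAt ℂ (fun q : (ℂ × ℂ) × ℂ => R (q.1.1 + q.1.2 * q.2))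
          (((x : ℂ), (0 : ℂ)), v) := by
        refine AnalyticAt.comp' ?_ e1
        simpa using hR
      have e4 : AnalyticAt ℂ (fun q : (ℂ × ℂ) × ℂ => snc (q.1.2 * (q.2 - 1)))
          (((x : ℂ), (0 : ℂ)), v) :=
        (snc_diff.analyticAt _).comp' e2
      exact e3.mul e4)
    (by
      intro v hv
      simp [kr, snc_zero])
  have hbr : ball ((x : ℂ), (0 : ℂ)) (min r ε) ∈ 𝓝 ((x : ℂ), (0 : ℂ)) :=
    ball_mem_nhds _ (lt_min hr hε)
  filter_upwards [hrp, hbr] with p hp hpb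
  obtain ⟨φ, y⟩ := p
  rw [mem_ball, Prod.dist_eq, max_lt_iff, lt_min_iff, lt_min_iff] at hpb
  simp only [dist_eq_norm, sub_zero] at hpb
  obtain ⟨⟨h1, h1'⟩, h2, h2'⟩ := hpb
  have key : X φ y = y * root (kr R (φ, y)) := by
    rcases eq_or_ne y 0 with rfl | hy
    · rw [zero_mul]
      exact P.X0 φ (hball (φ, 0) (hbox φ 0 h1 (by simpa using hr))).2.1
    · have h3 := hlin φ y h1 h2
      have hy' : 0 < ‖y‖ := norm_pos_iff.2 hy
      have h4 : X φ y / y ∈ ball (2 : ℂ) (1 / 4) := by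
        rw [mem_ball, dist_eq_norm]
        have : X φ y / y - 2 = (X φ y - 2 * y) / y := by field_simp
        rw [this, norm_div, div_lt_iff₀ hy']
        calc _ ≤ 1 / 8 * ‖y‖ := h3
          _ < 1 / 4 * ‖y‖ := by gcongr; norm_num
      have h5 : Kint (kr R (φ, y)) (X φ y / y) = 0 := by
        apply kint_chord R φ y _ hy
        rw [mul_div_cancel₀ _ hy]
        refine hXc φ y ?_ h2'
        have : φ.im = (φ - x).im := by simp
        rw [this]
        exact (Complex.abs_im_le_norm _).trans_lt h1'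
      have h6 := hp.2.2 _ h4 h5
      rw [← h6, mul_div_cancel₀ _ hy]
  simp only [TT, S0, ← key]
  rw [mul_sub, mul_one, ← key]

/-! ## 4. The iterates and Newton's formula -/

/-- Newton's formula for `X`, uncurried -/
noncomputable def nw (X : ℂ → ℂ → ℂ) (m : ℕ) (p : ℂ × ℂ) : ℂ := newt X m p.1 p.2

theorem iterates {X : ℂ → ℂ → ℂ} {S : ℂ × ℂ → ℂ × ℂ} {z : ℂ}
    (hX : AnalyticAt ℂ (fun p : ℂ × ℂ => X p.1 p.2) (z, 0)) (hX0 : X z 0 = 0)
    (hS : ∀ᶠ p in 𝓝 (z, (0 : ℂ)), S p = S0 X p) (k : ℕ) :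
    AnalyticAt ℂ (Tn X k) (z, 0) ∧ Tn X k (z, 0) = (z, 0) ∧
      ∀ᶠ p in 𝓝 (z, (0 : ℂ)), S^[k] p = Tn X k p := by
  have h0 : AnalyticAt ℂ (S0 X) (z, 0) :=
    (analyticAt_fst.fun_add hX).prod (hX.fun_sub analyticAt_snd)
  have h00 : S0 X (z, 0) = (z, 0) := by simp [S0, hX0]
  induction k with
  | zero => exact ⟨analyticAt_id, rfl, Eventually.of_forall fun p => rfl⟩
  | succ k ih =>
    obtain ⟨i1, i2, i3⟩ := ih
    have e : Tn X (k + 1) = fun p => S0 X (Tn X k p) := by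
      ext p <;> rfl
    refine ⟨?_, ?_, ?_⟩
    · rw [e]
      exact AnalyticAt.comp' (by rw [i2]; exact h0) i1
    · rw [e]
      simp only [i2, h00]
    · have t : Tendsto (Tn X k) (𝓝 (z, (0 : ℂ))) (𝓝 (z, (0 : ℂ))) := by
        have := i1.continuousAt.tendsto
        rwa [i2] at this
      filter_upwards [i3, t.eventually hS] with p h1 h2
      rw [Function.iterate_succ_apply', h1, h2, e]

theorem newt_eq {X : ℂ → ℂ → ℂ} {S : ℂ × ℂ → ℂ × ℂ} {z : ℂ}
    (hX : AnalyticAt ℂ (fun p : ℂ × ℂ => X p.1 p.2) (z, 0)) (hX0 : X z 0 = 0)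
    (hS : ∀ᶠ p in 𝓝 (z, (0 : ℂ)), S p = S0 X p) (m : ℕ) :
    AnalyticAt ℂ (nw X m) (z, 0) ∧ ∀ᶠ p in 𝓝 (z, (0 : ℂ)), Dk S m p = nw X m p := by
  have hi := iterates hX hX0 hS
  constructor
  · unfold nw newt
    refine Finset.analyticAt_fun_sum _ fun n hn => ?_
    refine analyticAt_const.fun_mul (Finset.analyticAt_fun_sum _ fun k hk => ?_)
    refine analyticAt_const.fun_mul ?_
    exact analyticAt_fst.comp' (hi k).1
  · have h : ∀ᶠ p in 𝓝 (z, (0 : ℂ)), ∀ k ∈ Finset.range (m + 1), S^[k] p = Tn X k p :=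
      (Filter.eventually_all_finset _).2 fun k _ => (hi k).2.2
    filter_upwards [h] with p hp
    unfold Dk nw newt
    refine Finset.sum_congr rfl fun n hn => ?_
    congr 1
    refine Finset.sum_congr rfl fun k hk => ?_
    rw [hp k (by simp only [Finset.mem_Icc, Finset.mem_range] at hn hk ⊢; omega)]

/-! ## 5. The main theorem -/

/-- the canonical coefficients are the Taylor coefficients of the pencil Hamiltonian -/
theorem realStart (hA : RootA) : RealStart := by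
  intro R δ E ξ X P x
  have hxS : (x : ℂ) ∈ Str δ := by simp [Str, P.hδ]
  have hxB : ((x : ℂ), (0 : ℂ)) ∈ BX δ := by simp [BX, P.hδ]
  have hBXn : BX δ ∈ 𝓝 ((x : ℂ), (0 : ℂ)) := (isOpen_BX δ).mem_nhds hxB
  -- a common ball
  have hTT := TT_eq hA P x
  obtain ⟨r0, hr0, hball0⟩ := Metric.eventually_nhds_iff_ball.1
    (hTT.eventually_nhds.and (show ∀ᶠ q in 𝓝 ((x : ℂ), (0 : ℂ)), q ∈ BX δ from hBXn))
  set r := r0 / 2 with hr
  have hrp : 0 < r := by positivity
  have hbox : ∀ φ y : ℂ, ‖φ - x‖ ≤ r → ‖y‖ ≤ r → (φ, y) ∈ ball ((x : ℂ), (0 : ℂ)) r0 := by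
    intro φ y h1 h2
    rw [mem_ball, Prod.dist_eq, max_lt_iff]
    simp only [dist_eq_norm, sub_zero]
    constructor <;> linarith
  have hU : ∀ z ∈ ball (x : ℂ) r, (∀ᶠ p in 𝓝 (z, (0 : ℂ)), TT R p = S0 X p) ∧ (z, (0 : ℂ)) ∈ BX δ := by
    intro z hz
    have := hball0 (z, 0) (hbox z 0 (by rw [mem_ball, dist_eq_norm] at hz; exact hz.le)
      (by simpa using hrp.le))
    exact this
  have hanE : ∀ p ∈ BX δ, AnalyticAt ℂ (fun p : ℂ × ℂ => E p.1 p.2) p := fun p hp =>
    Hol.analyticAt_of_differentiableOn (isOpen_BX δ) P.jE hp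
  have hanξ : ∀ p ∈ BX δ, AnalyticAt ℂ (fun p : ℂ × ℂ => ξ p.1 p.2) p := fun p hp =>
    Hol.analyticAt_of_differentiableOn (isOpen_BX δ) P.jξ hp
  have hanX : ∀ p ∈ BX δ, AnalyticAt ℂ (fun p : ℂ × ℂ => X p.1 p.2) p := fun p hp =>
    Hol.analyticAt_of_differentiableOn (isOpen_BX δ) P.jX hp
  have hanR : ∀ z ∈ Str δ, AnalyticAt ℂ R z := fun z hz =>
    P.dR.analyticAt ((isOpen_Str' δ).mem_nhds hz)
  have hnw : ∀ z ∈ ball (x : ℂ) r, ∀ m : ℕ, AnalyticAt ℂ (nw X m) (z, 0) ∧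
      ∀ᶠ p in 𝓝 (z, (0 : ℂ)), Dk (TT R) m p = nw X m p := by
    intro z hz m
    obtain ⟨h1, h2⟩ := hU z hz
    exact newt_eq (hanX _ h2) (P.X0 z h2.1) h1 m
  have hsin : ∀ z : ℂ, AnalyticAt ℂ (fun p : ℂ × ℂ => Complex.sin p.2) (z, 0) := fun z =>
    Complex.analyticAt_sin.comp' analyticAt_snd
  -- analyticity of the canonical coefficients
  have hF1 : ∀ k : ℕ, ∀ z ∈ ball (x : ℂ) r, AnalyticAt ℂ (Ik R k) z := by
    intro k z hz
    obtain ⟨h1, h2⟩ := hnw z hz k
    have h3 : AnalyticAt ℂ (fun p => Complex.sin p.2 * Dk (TT R) k p) (z, (0 : ℂ)) := by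
      refine ((hsin z).fun_mul h1).congr ?_
      filter_upwards [h2] with p hp
      rw [hp]
    exact ((hanR z (hU z hz).2.1).fun_mul (tc_an h3 (k - 1))).div_const
  have hG1 : ∀ k : ℕ, ∀ z ∈ ball (x : ℂ) r,
      AnalyticAt ℂ (fun z => R z * tc (fun p => E p.1 p.2) k z) z := fun k z hz =>
    (hanR z (hU z hz).2.1).fun_mul (tc_an (hanE _ (hU z hz).2) k)
  -- near the real point they are the Taylor coefficients of `R E`
  have hF2 : ∀ k : ℕ, Ik R k =ᶠ[𝓝 (x : ℂ)] fun z => R z * tc (fun p => E p.1 p.2) k z := by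
    intro k
    rcases k with _ | j
    · filter_upwards [ball_mem_nhds (x : ℂ) hrp] with z hz
      simp [Ik, tc, P.E0 z (hU z hz).2.1]
    obtain ⟨ε, hε, C, hC⟩ := P.newton (j + 1)
    have hIm : ∀ᶠ z in 𝓝 (x : ℂ), |z.im| < ε := by
      have h1 : Continuous fun z : ℂ => |z.im| := by fun_prop
      exact h1.continuousAt.eventually (gt_mem_nhds (by simpa using hε))
    filter_upwards [ball_mem_nhds (x : ℂ) hrp, hIm] with z hz hzim
    obtain ⟨h1, h2⟩ := hnw z hz (j + 1)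
    have hzB := (hU z hz).2
    have ha1 : AnalyticAt ℂ (fun y : ℂ => Complex.sin y * nw X (j + 1) (z, y)) 0 :=
      an_slice (f := fun p : ℂ × ℂ => Complex.sin p.2 * nw X (j + 1) p) ((hsin z).fun_mul h1)
    have ha2 : AnalyticAt ℂ (fun y : ℂ => Complex.sin y * ξ z y) 0 :=
      an_slice (f := fun p : ℂ × ℂ => Complex.sin p.2 * ξ p.1 p.2)
        ((hsin z).fun_mul (hanξ _ hzB))
    have e1 : tc (fun p => Complex.sin p.2 * Dk (TT R) (j + 1) p) j z =
        iteratedDeriv j (fun y : ℂ => Complex.sin y * nw X (j + 1) (z, y)) 0 / (j.factorial : ℂ) := by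
      have : (fun p : ℂ × ℂ => Complex.sin p.2 * Dk (TT R) (j + 1) p) =ᶠ[𝓝 (z, 0)]
          fun p => Complex.sin p.2 * nw X (j + 1) p := by
        filter_upwards [h2] with p hp
        rw [hp]
      rw [tc_congr this]
      rfl
    have e2 : iteratedDeriv j (fun y : ℂ => Complex.sin y * ξ z y) 0 =
        iteratedDeriv j (fun y : ℂ => Complex.sin y * nw X (j + 1) (z, y)) 0 := by
      have h3 : iteratedDeriv j (fun y : ℂ => Complex.sin y * ξ z y -
          Complex.sin y * nw X (j + 1) (z, y)) 0 = 0 := by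
        refine iter_zero (C := C) (n := j + 1) (ha2.fun_sub ha1) ?_ (by omega)
        have hs : ∀ᶠ y in 𝓝 (0 : ℂ), ‖Complex.sin y‖ < 1 := by
          have h4 : Continuous fun y : ℂ => ‖Complex.sin y‖ := by fun_prop
          exact h4.continuousAt.eventually (gt_mem_nhds (by simp))
        filter_upwards [hs, ball_mem_nhds (0 : ℂ) hε] with y hy hy2
        have h5 := hC z y hzim (by simpa using hy2)
        rw [← mul_sub, norm_mul]
        calc _ ≤ 1 * ‖ξ z y - nw X (j + 1) (z, y)‖ := by gcongr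
          _ ≤ _ := by rw [one_mul]; exact h5
      rw [iteratedDeriv_fun_sub ha2.contDiffAt ha1.contDiffAt, sub_eq_zero] at h3
      exact h3
    have e3 : iteratedDeriv j (fun y : ℂ => Complex.sin y * ξ z y) 0 =
        iteratedDeriv (j + 1) (fun y => E z y) 0 := by
      rw [iteratedDeriv_succ']
      apply Filter.EventuallyEq.iteratedDeriv_eq
      filter_upwards [ball_mem_nhds (0 : ℂ) P.hδ] with y hy
      rw [(P.dE z y ⟨hzB.1, by simpa using hy⟩).deriv, mul_comm]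
    have hj : ((j : ℂ) + 1) ≠ 0 := Nat.cast_add_one_ne_zero j
    have hf : (j.factorial : ℂ) ≠ 0 := by exact_mod_cast j.factorial_ne_zero
    simp only [Ik, Nat.add_sub_cancel]
    rw [e1, ← e2, e3]
    simp only [tc]
    rw [Nat.factorial_succ]
    push_cast
    field_simp
  have hEq : ∀ k : ℕ, ∀ z ∈ ball (x : ℂ) r, Ik R k z = R z * tc (fun p => E p.1 p.2) k z := by
    intro k
    exact AnalyticOnNhd.eqOn_of_preconnected_of_eventuallyEq (hF1 k) (hG1 k)
      (convex_ball _ _).isPreconnected (mem_ball_self hrp) (hF2 k)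
  -- the sum
  have hSm : ∀ p : ℂ × ℂ, p.1 ∈ ball (x : ℂ) r → ‖p.2‖ < δ → Sm (Ik R) p = R p.1 * E p.1 p.2 := by
    intro p hp1 hp2
    have hd : DifferentiableOn ℂ (fun y => E p.1 y) (ball 0 δ) := by
      intro y hy
      exact ((hanE (p.1, y) ⟨(hU _ hp1).2.1, by simpa using hy⟩).differentiableAt.comp y
        (f := fun t : ℂ => ((p.1, t) : ℂ × ℂ)) (by fun_prop)).differentiableWithinAt
    have h1 := Complex.taylorSeries_eq_on_ball' (z := p.2) (c := 0) (r := δ)
      (by simpa using hp2) hd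
    rw [← h1, ← tsum_mul_left]
    unfold Sm
    congr 1
    ext k
    rw [hEq k p.1 hp1]
    simp only [tc, sub_zero]
    ring
  refine ⟨?_, ?_, ?_, ?_⟩
  · filter_upwards [ball_mem_nhds (x : ℂ) hrp] with z hz k
    exact hF1 k z hz
  · -- geometric bound
    set r' := min (r / 2) (δ / 2) with hr'
    have hr'0 : 0 < r' := lt_min (by positivity) (by have := P.hδ; positivity)
    have hK : IsCompact (closedBall (x : ℂ) r' ×ˢ closedBall (0 : ℂ) r') :=
      (isCompact_closedBall _ _).prod (isCompact_closedBall _ _)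
    have hsub : closedBall (x : ℂ) r' ×ˢ closedBall (0 : ℂ) r' ⊆ BX δ := by
      rintro ⟨z, y⟩ ⟨hz, hy⟩
      refine (hU z ?_).2.1 |> fun h => ⟨h, ?_⟩
      · rw [mem_closedBall] at hz
        rw [mem_ball]
        have := min_le_left (r / 2) (δ / 2)
        linarith
      · have hδ := P.hδ
        rw [mem_closedBall, dist_zero_right] at hy
        have := min_le_right (r / 2) (δ / 2)
        show ‖y‖ < δ
        linarith
    obtain ⟨M, hM⟩ := hK.exists_bound_of_continuousOn (P.jE.continuousOn.mono hsub)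
    have hKR : ContinuousOn R (closedBall (x : ℂ) r') := by
      refine P.dR.continuousOn.mono fun z hz => ?_
      exact (hsub (show (z, (0 : ℂ)) ∈ _ from ⟨hz, by simpa using hr'0.le⟩)).1
    obtain ⟨M', hM'⟩ := (isCompact_closedBall (x : ℂ) r').exists_bound_of_continuousOn hKR
    refine ⟨M' * M, 1 / r', r', by positivity, hr'0, fun z hz k => ?_⟩
    have hz' : z ∈ closedBall (x : ℂ) r' := ball_subset_closedBall hz
    have hzr : z ∈ ball (x : ℂ) r := by
      rw [mem_ball] at hz ⊢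
      have := min_le_left (r / 2) (δ / 2)
      linarith
    have hM'0 : 0 ≤ M' := (norm_nonneg _).trans (hM' z hz')
    have hc : ‖tc (fun p => E p.1 p.2) k z‖ ≤ M / r' ^ k := by
      have hd : DiffContOnCl ℂ (fun y => E z y) (ball 0 r') := by
        refine DifferentiableOn.diffContOnCl_ball (U := closedBall 0 r') ?_ le_rfl
        intro y hy
        exact ((hanE (z, y) (hsub ⟨hz', hy⟩)).differentiableAt.comp y
          (f := fun t : ℂ => ((z, t) : ℂ × ℂ)) (by fun_prop)).differentiableWithinAt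
      have := Complex.norm_iteratedDeriv_le_of_forall_mem_sphere_norm_le k hr'0 hd
        (C := M) (fun y hy => hM (z, y) ⟨hz', sphere_subset_closedBall hy⟩)
      simp only [tc]
      rw [norm_div, Complex.norm_natCast, div_le_iff₀ (by positivity)]
      calc _ ≤ k.factorial * M / r' ^ k := this
        _ = _ := by ring
    rw [hEq k z hzr, norm_mul]
    calc _ ≤ M' * (M / r' ^ k) := by
          gcongr
          exact hM' z hz'
      _ = _ := by rw [one_div, inv_pow]; ring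
  · -- invariance
    obtain ⟨ε, hε, hXc⟩ := P.Xc
    have hX0 : X x 0 = 0 := P.X0 x (by simpa using P.hδ)
    have hXa := hanX _ hxB
    have hXt : Tendsto (fun p : ℂ × ℂ => X p.1 p.2) (𝓝 ((x : ℂ), (0 : ℂ))) (𝓝 0) := by
      have := hXa.continuousAt.tendsto
      simpa [hX0] using this
    have hS0t : Tendsto (S0 X) (𝓝 ((x : ℂ), (0 : ℂ))) (𝓝 ((x : ℂ), (0 : ℂ))) := by
      have h1 : Tendsto (fun p : ℂ × ℂ => p.1) (𝓝 ((x : ℂ), (0 : ℂ))) (𝓝 (x : ℂ)) :=
        continuousAt_fst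
      have h2 : Tendsto (fun p : ℂ × ℂ => p.2) (𝓝 ((x : ℂ), (0 : ℂ))) (𝓝 (0 : ℂ)) :=
        continuousAt_snd
      have := (h1.add hXt).prodMk_nhds (hXt.sub h2)
      have e : S0 X = fun c => (c.1 + X c.1 c.2, X c.1 c.2 - c.2) := rfl
      rw [e]
      simpa using this
    have hnice : ∀ᶠ p in 𝓝 ((x : ℂ), (0 : ℂ)), p.1 ∈ ball (x : ℂ) r ∧ ‖p.2‖ < δ ∧
        |p.1.im| < ε ∧ ‖p.2‖ < ε ∧ ‖X p.1 p.2‖ < δ := by
      refine Filter.Eventually.and ?_ (Filter.Eventually.and ?_ (Filter.Eventually.and ?_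
        (Filter.Eventually.and ?_ ?_)))
      · exact continuousAt_fst.eventually (ball_mem_nhds _ hrp)
      · have h1 : Continuous fun p : ℂ × ℂ => ‖p.2‖ := by fun_prop
        exact h1.continuousAt.eventually (gt_mem_nhds (by simpa using P.hδ))
      · have h1 : Continuous fun p : ℂ × ℂ => |p.1.im| := by fun_prop
        exact h1.continuousAt.eventually (gt_mem_nhds (by simpa using hε))
      · have h1 : Continuous fun p : ℂ × ℂ => ‖p.2‖ := by fun_prop
        exact h1.continuousAt.eventually (gt_mem_nhds (by simpa using hε))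
      · have h1 := hXt.norm
        exact h1.eventually (gt_mem_nhds (by simpa using P.hδ))
    filter_upwards [hTT, hnice, hS0t.eventually hnice] with p h1 h2 h3
    obtain ⟨a1, a2, a3, a4, a5⟩ := h2
    obtain ⟨b1, b2, b3, b4, b5⟩ := h3
    rw [h1, hSm _ b1 b2, hSm _ a1 a2]
    simp only [S0] at b1 b2 ⊢
    exact (P.chord p.1 (X p.1 p.2) p.2 (hU _ a1).2.1 (hU _ b1).2.1 a5 a2 b2
      (hXc p.1 p.2 a3 a4)).symm
  · -- oddness
    filter_upwards [ball_mem_nhds (x : ℂ) hrp] with z hz k hk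
    rw [hEq k z hz]
    have hzB := (hU z hz).2
    have h1 : iteratedDeriv k (fun y => E z (-y)) 0 = iteratedDeriv k (fun y => E z y) 0 := by
      rw [iteratedDeriv_comp_neg k (fun y => E z y) 0]
      simp [hk.neg_one_pow]
    have h2 : iteratedDeriv k (fun y => E z (-y)) 0 = -iteratedDeriv k (fun y => E z y) 0 := by
      rw [← iteratedDeriv_fun_neg]
      apply Filter.EventuallyEq.iteratedDeriv_eq
      filter_upwards [ball_mem_nhds (0 : ℂ) P.hδ] with y hy
      exact P.odd z y ⟨hzB.1, by simpa using hy⟩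
    have h3 : iteratedDeriv k (fun y => E z y) 0 = 0 := by
      have := h1.symm.trans h2
      linear_combination this / 2
    simp [tc, h3]

end

end Vale.Agent.P097.H247
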